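import Vale.Agent.P243.Final

/-!
# P243: Bang's half-area question and the 1-codimensional cylinder covering conjecture fail

There is a convex body `K` in Euclidean three-space (in the proof: a regular tetrahedron) with a
finite covering by cylinders `B i + ℝ u i` whose total base area is at most `0.49993` times the
smallest area of a projection of `K`; the sum of the relative base areas is at most `0.49993` too.
-/

open MeasureTheory
open scoped BigOperators

namespace Vale.Agent.Results.P243.HalfAreaFails

open Vale.Agent.P243.Bang

theorem result :
    ∃ K : Set Space, Convex ℝ K ∧ IsCompact K ∧ (interior K).Nonempty ∧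
      ∃ (m : ℕ) (u : Fin m → Space) (B : Fin m → Set Space),
        (∀ i, ‖u i‖ = 1 ∧ B i ⊆ plane (u i) ∧ MeasurableSet (B i) ∧ Measure.euclideanHausdorffMeasure 2 (B i) < ⊤) ∧
        K ⊆ ⋃ i, cylinder (u i) (B i) ∧
        0 < Amin K ∧ ∑ i, area (B i) ≤ 49993 / 100000 * Amin K ∧
        ∑ i, area (B i) / area (shadow (u i) K) ≤ 49993 / 100000 :=
  Vale.Agent.P243.final

end Vale.Agent.Results.P243.HalfAreaFails
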